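import Vale.Agent.P236.Classes

/-!
# P236: the cube of `b_j`, and the target `h_0 b_{j-1}³` of the Toda differential, vanish in `E_2`

In the cobar complex of any `F₃`-coalgebra `C` that receives a coalgebra map from
`P = F₃[ξ₁, ξ₂, …]` with Milnor's coproduct (for example `C = P`, or `C` the dual of the mod 3
Steenrod algebra, whose cobar complex has cohomology `Ext_{A₃}(F₃, F₃)`), for every `j ≥ 2`
the cocycles `b_j³` and `h_0 b_{j-1}³` are coboundaries, and so is `h_{j-1} b_j²` for `j ≥ 1`.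
On the other hand `h_0 b_0³` is not a coboundary if `C` also has a compatible projection to `P`.
-/

open TensorProduct Vale.Agent.P236

/-- Let `C` be an `F₃`-module with a linear map `Δ : C → C ⊗ C` (for example the dual Steenrod
algebra), `f : P → C` a linear map compatible with the coproducts, and `D` the differential of the
cobar complex of `C` (it exists and is unique, for any choice of the unit).
For `j ≥ 2`: `b_j³ = D c` for some `c` of degree `5`, and `h_0 b_{j-1}³ = D c` for some `c` of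
degree `6`; for `j ≥ 1`: `h_{j-1} b_j² = D c` for some `c` of degree `4`; if `f` has a left inverse
compatible with the coproducts, then `h_0 b_0³` is not a coboundary. -/
theorem Vale.Agent.Results.P236.TodaTargetVanishes.result
    (C : Type) [AddCommGroup C] [Module (ZMod 3) C] (Δ : C →ₗ[ZMod 3] C ⊗[ZMod 3] C) :
    (∀ e : C, ∃! D, IsCobarDiff Δ e D) ∧
    ∀ f : PStar →ₗ[ZMod 3] C, Compatible (milnorΔ (ZMod 3)).toLinearMap Δ f →
      ∀ D, IsCobarDiff Δ (f 1) D →
        (∀ j, 2 ≤ j → IsBdry D 5 (bCls f j ^ 3)) ∧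
        (∀ j, 2 ≤ j → IsBdry D 6 (hCls f 0 * bCls f (j - 1) ^ 3)) ∧
        (∀ j, 1 ≤ j → IsBdry D 4 (hCls f (j - 1) * bCls f j ^ 2)) ∧
        (∀ g : C →ₗ[ZMod 3] PStar, Compatible Δ (milnorΔ (ZMod 3)).toLinearMap g →
          (∀ a, g (f a) = a) → ¬ IsBdry D 6 (hCls f 0 * bCls f 0 ^ 3)) := by
  refine ⟨existsUnique_cobarDiff Δ, fun f hf D hD => ?_⟩
  rw [hD.eq]
  have e3 : ∀ z : TensorAlgebra (ZMod 3) C, z ^ 3 = z * z * z := fun z => by
    rw [pow_succ, sq]
  refine ⟨?_, ?_, ?_, ?_⟩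
  · intro j hj
    obtain ⟨n, rfl⟩ := Nat.exists_eq_add_of_le' hj
    rw [e3]
    refine exists_homogeneous Δ (f 1) (s := 5) (mul_mem' (s := 4) (t := 2)
      (mul_mem' (s := 2) (t := 2) (bCls_mem f _) (bCls_mem f _)) (bCls_mem f _)) ?_
    obtain ⟨c, hc⟩ := transport Δ f hf (bj_cube n)
    refine ⟨c, hc.trans ?_⟩
    simp only [map_mul, rho_bb, bCls_eq]
  · intro j hj
    obtain ⟨n, rfl⟩ := Nat.exists_eq_add_of_le' hj
    rw [show n + 2 - 1 = n + 1 by omega, e3]
    refine exists_homogeneous Δ (f 1) (s := 6) (mul_mem' (s := 1) (t := 6) (hCls_mem f _)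
      (mul_mem' (s := 4) (t := 2) (mul_mem' (s := 2) (t := 2) (bCls_mem f _) (bCls_mem f _))
        (bCls_mem f _))) ?_
    obtain ⟨c, hc⟩ := transport Δ f hf (h0_bj_cube n)
    refine ⟨c, hc.trans ?_⟩
    simp only [map_mul, rho_bb, rho_hh, bCls_eq, hCls_eq, mul_assoc]
  · intro j hj
    obtain ⟨n, rfl⟩ := Nat.exists_eq_add_of_le' hj
    rw [show n + 1 - 1 = n by omega, sq]
    refine exists_homogeneous Δ (f 1) (s := 4) (mul_mem' (s := 1) (t := 4) (hCls_mem f _)
      (mul_mem' (s := 2) (t := 2) (bCls_mem f _) (bCls_mem f _))) ?_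
    obtain ⟨c, hc⟩ := transport Δ f hf (h_bj_sq n)
    refine ⟨c, hc.trans ?_⟩
    simp only [map_mul, rho_bb, rho_hh, bCls_eq, hCls_eq, mul_assoc]
  · rintro g hg hgf ⟨c, -, hc⟩
    refine h0b0_cube_ne (x := hh (ZMod 3) 0)
      (x2 := TensorAlgebra.ι (ZMod 3) (xi (ZMod 3) 1 ^ 2)) ?_ rfl ⟨tmap g c, ?_⟩
    · rw [hh, pow_zero, pow_one]
    · have h := tmap_cobarD g Δ (milnorΔ (ZMod 3)).toLinearMap (f 1) hg c
      rw [hgf] at h
      have e2 : ∀ t, tmap g (tmap f t) = t := by
        intro t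
        induction t using TensorAlgebra.induction with
        | algebraMap r => simp
        | ι a => simp [hgf]
        | mul a b ha hb => simp only [map_mul, ha, hb]
        | add a b ha hb => simp only [map_add, ha, hb]
      rw [← h, hc, e3, bCls_eq, hCls_eq, ← map_mul, ← map_mul, ← map_mul, e2, bb, hh]
      simp only [pow_zero, pow_one, mul_one, MData.e, mul_assoc]
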